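import Crest.Agent.R264.Alg.Cx

/-! Row 264, block Init: the real algebraic part. -/

set_option autoImplicit false
set_option linter.unusedSectionVars false
open Set Filter Topology MvPolynomial

namespace Crest.Agent.R264

variable {σ τ ι : Type} [Fintype σ] [Fintype τ] [Fintype ι] [DecidableEq σ] [DecidableEq τ] [DecidableEq ι]
  {𝕜 : Subfield ℝ}

theorem GrA.tendsto {M : Set (σ → ℝ)} {e : τ → σ} {Γ : (σ → ℝ) → (τ → ℝ) → σ → ℝ} (h : GrA 𝕜 M e Γ) {z : σ → ℝ}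
    (hz : z ∈ M) : Tendsto (Γ z) (𝓝 (z ∘ e)) (𝓝 z) := by
  have := (h.an z hz).continuousAt.tendsto
  rwa [h.self z hz] at this

theorem GrA.uniq' {M : Set (σ → ℝ)} {e : τ → σ} {Γ : (σ → ℝ) → (τ → ℝ) → σ → ℝ} (h : GrA 𝕜 M e Γ) {z : σ → ℝ}
    (hz : z ∈ M) : ∀ᶠ q in 𝓝 z, q ∈ M → Γ z (q ∘ e) = q :=
  (h.uniq z hz).mono fun q hq hM => hq fun _ hf => hf q hM

/-- points of `M` near `z` lie on the branch through `z` -/
theorem GrA.freq {M : Set (σ → ℝ)} {e : τ → σ} {Γ : (σ → ℝ) → (τ → ℝ) → σ → ℝ} (h : GrA 𝕜 M e Γ) {z : σ → ℝ}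
    (hz : z ∈ M) {p : (σ → ℝ) → Prop} (hp : ∃ᶠ q in 𝓝 z, q ∈ M ∧ p q) : ∃ᶠ x in 𝓝 (z ∘ e), p (Γ z x) := by
  have hc : Tendsto (fun q : σ → ℝ => q ∘ e) (𝓝 z) (𝓝 (z ∘ e)) :=
    (continuous_pi fun i => continuous_apply (e i)).continuousAt
  refine hc.frequently ((hp.and_eventually (h.uniq' hz)).mono fun q hq => ?_)
  rw [hq.2 hq.1.1]
  exact hq.1.2

/-- the part of `M` near which `f` does not vanish identically -/
theorem GrA.nonzero {M : Set (σ → ℝ)} {e : τ → σ} {Γ : (σ → ℝ) → (τ → ℝ) → σ → ℝ} (h : GrA 𝕜 M e Γ)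
    (f : MvPolynomial σ 𝕜) : GrA 𝕜 {z | z ∈ M ∧ ∃ᶠ x in 𝓝 (z ∘ e), aeval (Γ z x) f ≠ 0} e Γ where
  an z hz := h.an z hz.1
  self z hz := h.self z hz.1
  uniq z hz := (h.uniq z hz.1).mono fun q hq hq' => hq fun g hg => hq' g fun y hy => hg y hy.1
  alg z hz := h.alg z hz.1
  mem z hz := by
    have ha : AnalyticAt ℝ (fun x => aeval (Γ z x) f) (z ∘ e) :=
      (analytic_aeval f _ trivial).comp (f := Γ z) (h.an z hz.1)
    obtain ⟨δ, hδ, hb⟩ := Metric.eventually_nhds_iff_ball.1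
      (ha.eventually_analyticAt.and ((h.an z hz.1).eventually_analyticAt.and (h.mem z hz.1).eventually_nhds))
    filter_upwards [Metric.ball_mem_nhds _ hδ] with x hx
    obtain ⟨-, h2, h3⟩ := hb x hx
    obtain ⟨h4, h5⟩ := h3.self_of_nhds
    refine ⟨h4, h5, ?_⟩
    refine h.freq h5 (p := fun q => aeval q f ≠ 0) (h2.continuousAt.tendsto.frequently ?_)
    refine (Frequently.and_eventually ?_ h3).mono fun y hy => ⟨hy.2.2, hy.1⟩
    by_contra hn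
    have h0 : (fun x => aeval (Γ z x) f) =ᶠ[𝓝 x] 0 := (not_frequently.1 hn).mono fun y hy => not_not.1 hy
    have := AnalyticOnNhd.eqOn_zero_of_preconnected_of_eventuallyEq_zero (fun y hy => (hb y hy).1)
      (convex_ball _ _).isPreconnected hx h0
    exact hz.2 (mem_of_superset (Metric.ball_mem_nhds _ hδ) fun y hy hne => hne (this hy))

/-- signs of finitely many polynomials only change over `{R₁ = 0}`, and along `{R₁ = 0}` only over `C₁` -/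
theorem GrA.signs [Countable 𝕜] {M : Set (σ → ℝ)} {e : τ → σ} (he : Function.Injective e)
    {Γ : (σ → ℝ) → (τ → ℝ) → σ → ℝ} (h : GrA 𝕜 M e Γ) {J : Type} [Fintype J] (Q : J → MvPolynomial σ 𝕜) :
    ∃ (R₁ : MvPolynomial τ 𝕜) (C₁ : Set (τ → ℝ)), R₁ ≠ 0 ∧ IsAlg 𝕜 C₁ ∧ (∀ x ∈ C₁, td 𝕜 x + 2 ≤ Fintype.card τ) ∧
      (∀ x, x ∉ C₁ → aeval x R₁ = 0 → ∃ r : (τ → ℝ) → ℝ, AnalyticAt ℝ r x ∧ fderiv ℝ r x ≠ 0 ∧
        ∀ᶠ x' in 𝓝 x, (aeval x' R₁ = 0 ↔ r x' = 0)) ∧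
      (∀ z ∈ M, aeval (z ∘ e) R₁ ≠ 0 → ∀ k, (∃ᶠ q in 𝓝 z, q ∈ M ∧ aeval q (Q k) ≠ 0) → aeval z (Q k) ≠ 0) ∧
      ∀ z ∈ M, z ∘ e ∉ C₁ → aeval (z ∘ e) R₁ = 0 → ∀ k,
        (∃ᶠ q in 𝓝 z, q ∈ M ∧ aeval (q ∘ e) R₁ = 0 ∧ aeval q (Q k) ≠ 0) → aeval z (Q k) ≠ 0 := by
  classical
  choose R hR0 hR using fun k => (h.nonzero (Q k)).hyp he (f := Q k) fun z hz => hz.2
  have hne : ∏ k, R k ≠ 0 := Finset.prod_ne_zero_iff.2 fun k _ => hR0 k
  obtain ⟨C₁, h1, h2, h3, h4⟩ := h.over he hne (fun q => ∏ k with aeval q (Q k) ≠ 0, Q k) fun q _ _ _ => by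
    rw [map_prod]
    exact Finset.prod_ne_zero_iff.2 fun k hk => (Finset.mem_filter.1 hk).2
  refine ⟨∏ k, R k, C₁, hne, h1, h2, h3, fun z hz hz0 k hk h0 => hz0 ?_, fun z hz hzC hz0 k hk => ?_⟩
  · rw [map_prod]
    exact Finset.prod_eq_zero (Finset.mem_univ k) (hR k z ⟨hz, h.freq hz hk⟩ h0)
  · obtain ⟨q, -, -, -, -, h5, h6⟩ := h4 z hz hzC hz0
    obtain ⟨x, ⟨h7, h8⟩, h9, h10⟩ := ((h.freq hz hk).and_eventually (h6.and (h.mem z hz))).exists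
    rw [h10.1] at h7
    have hq : aeval q (Q k) ≠ 0 := fun h0 => h8 (h9 h7 _ fun y hy => by rw [hy]; exact h0)
    rw [map_prod] at h5
    exact Finset.prod_ne_zero_iff.1 h5 k (Finset.mem_filter.2 ⟨Finset.mem_univ k, hq⟩)

/-- real and imaginary part of a root -/
theorem ini_alg_re_im (A : Subalgebra 𝕜 ℝ) {p : Polynomial ℂ} (hp : p ≠ 0)
    (hc : ∀ k, (p.coeff k).re ∈ A ∧ (p.coeff k).im ∈ A) {w : ℂ} (hw : p.eval w = 0) :
    IsAlgebraic A w.re ∧ IsAlgebraic A w.im := by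
  let S := Subalgebra.algebraicClosure A ℂ
  have hA : ∀ x ∈ A, (x : ℂ) ∈ S := fun x hx => S.algebraMap_mem (⟨x, hx⟩ : A)
  have hI : Complex.I ∈ S := IsAlgebraic.of_pow (n := 2) two_pos (by
    rw [Complex.I_sq]
    exact (S.neg_mem S.one_mem : (-1 : ℂ) ∈ S))
  have hcS : ∀ k, p.coeff k ∈ S := fun k => by
    rw [← Complex.re_add_im (p.coeff k)]
    exact S.add_mem (hA _ (hc k).1) (S.mul_mem (hA _ (hc k).2) hI)
  obtain ⟨p', hp'⟩ : p ∈ Polynomial.lifts (algebraMap S ℂ) :=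
    (Polynomial.lifts_iff_coeff_lifts _).2 fun k => ⟨⟨_, hcS k⟩, rfl⟩
  have hp'' : p'.map (algebraMap S ℂ) = p := hp'
  have hwS : IsAlgebraic S w := ⟨p', fun h0 => hp (by rw [← hp'', h0, Polynomial.map_zero]), by
    rw [← Polynomial.eval_map_algebraMap, hp'', hw]⟩
  have hw1 : w ∈ S := hwS.restrictScalars A
  have hw2 : (starRingEnd ℂ) w ∈ S := IsAlgebraic.algHom (Complex.conjAe.toAlgHom.restrictScalars A) hw1
  have hh : ((2⁻¹ : ℝ) : ℂ) ∈ S := hA _ (by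
    have := A.algebraMap_mem (2⁻¹ : 𝕜)
    rwa [map_inv₀, map_ofNat] at this)
  have key : ∀ x : ℝ, (x : ℂ) ∈ S → IsAlgebraic A x := fun x hx =>
    (isAlgebraic_algebraMap_iff (A := ℂ) Complex.ofReal_injective).1 hx
  refine ⟨key _ ?_, key _ ?_⟩
  · have : (w.re : ℂ) = ((2⁻¹ : ℝ) : ℂ) * (w + (starRingEnd ℂ) w) := by
      rw [Complex.add_conj]; push_cast; ring
    rw [this]
    exact S.mul_mem hh (S.add_mem hw1 hw2)
  · have : (w.im : ℂ) = ((2⁻¹ : ℝ) : ℂ) * (((starRingEnd ℂ) w - w) * Complex.I) := by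
      rw [← neg_sub, Complex.sub_conj]; push_cast
      linear_combination (w.im : ℂ) * Complex.I_sq
    rw [this]
    exact S.mul_mem hh (S.mul_mem (S.sub_mem hw2 hw1) hI)

theorem rc_comp (z : σ → ℂ) (j : τ → σ) : rc z ∘ Sum.map j j = rc (z ∘ j) := by
  funext i; rcases i with i | i <;> rfl

/-- a point whose coordinates are roots of polynomials over `𝕜(I)[z ∘ j]` -/
theorem ini_td {j : τ → σ} {z : σ → ℂ} (f : σ → Polynomial (MvPolynomial τ ℂ))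
    (hf : ∀ i k m, (coeff m ((f i).coeff k)).re ∈ 𝕜 ∧ (coeff m ((f i).coeff k)).im ∈ 𝕜)
    (h0 : ∀ i, (f i).map (eval (z ∘ j)) ≠ 0) (hz : ∀ i, ((f i).map (eval (z ∘ j))).eval (z i) = 0) :
    td 𝕜 (rc z) ≤ td 𝕜 (rc (z ∘ j)) := by
  have key := fun i => ini_alg_re_im (Algebra.adjoin 𝕜 (range (rc (z ∘ j)))) (h0 i) (fun k => by
    obtain ⟨f₁, f₂, h⟩ := exists_re_im ((f i).coeff k) (hf i k)
    rw [Polynomial.coeff_map, ← (h _).1, ← (h _).2, Algebra.adjoin_range_eq_range_aeval]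
    exact ⟨⟨f₁, rfl⟩, ⟨f₂, rfl⟩⟩) (hz i)
  refine td_le_of_alg fun i => ?_
  rcases i with i | i
  · exact (key i).1
  · exact (key i).2

/-- a real polynomial with coefficients in `𝕜` -/
theorem ini_descend {J : Type} [Finite J] (𝕜 : Subfield ℝ) [Countable 𝕜] (Q : J → MvPolynomial σ ℝ) :
    ∃ 𝕜' : Subfield ℝ, 𝕜 ≤ 𝕜' ∧ Countable 𝕜' ∧ ∃ Q' : J → MvPolynomial σ 𝕜', ∀ k q, aeval q (Q' k) = eval q (Q k) := by
  obtain ⟨𝕜', h1, h2, h3⟩ := exists_coeff_field 𝕜 (countable_range fun k => map Complex.ofRealHom (Q k))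
  have : ∀ k, ∃ Q' : MvPolynomial σ 𝕜', map 𝕜'.subtype Q' = Q k := fun k => by
    refine mem_range_map_iff_coeffs_subset.2 fun c hc => ?_
    obtain ⟨m, -, rfl⟩ := mem_coeffs_iff.1 hc
    have := (h3 _ ⟨k, rfl⟩ m).1
    rw [coeff_map] at this
    exact ⟨⟨_, this⟩, rfl⟩
  choose Q' hQ' using this
  exact ⟨𝕜', h1, h2, Q', fun k q => by rw [aeval_eq_eval_map, hQ']⟩

end Crest.Agent.R264
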