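import Crest.Agent.R264.Init.An
import Crest.Agent.R264.Init.Real

/-! Row 264, block Init: the Zariski closure of `U` as a graph over coordinates. -/

set_option autoImplicit false
set_option linter.unusedSectionVars false
open Set Filter Topology MvPolynomial

namespace Crest.Agent.R264

variable {σ τ : Type} [Fintype σ] [Fintype τ] [DecidableEq σ] [DecidableEq τ] {𝕜 : Subfield ℝ}

theorem ini_an_eval (f : MvPolynomial σ ℂ) : AnalyticOnNhd ℂ (fun z : σ → ℂ => eval z f) univ :=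
  AnalyticOnNhd.eval_mvPolynomial f

theorem ini_prime {n : ℕ} {U : Set (σ → ℂ)} (hm : Mfd n U) (hc : IsConnected U) :
    (vanishingIdeal ℂ U : Ideal (MvPolynomial σ ℂ)).IsPrime := by
  refine ⟨fun h => ?_, fun {f g} hfg => ?_⟩
  · obtain ⟨x, hx⟩ := hc.nonempty
    have := mem_vanishingIdeal_iff.1 ((Ideal.eq_top_iff_one _).1 h) x hx
    simp at this
  · refine or_iff_not_imp_left.2 fun hf => mem_vanishingIdeal_iff.2 ?_
    obtain ⟨x, hx⟩ := not_forall.1 (mt mem_vanishingIdeal_iff.2 hf)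
    obtain ⟨hx, hfx⟩ := Classical.not_imp.1 hx
    have hfx' : ∀ᶠ y in 𝓝 x, eval y f ≠ 0 := (ini_an_eval f x trivial).continuousAt.eventually_ne hfx
    refine ident hm hc.isPreconnected (f := fun z => eval z g) (g := fun _ => 0)
      ((ini_an_eval g).mono (subset_univ _)).analyticOn analyticOn_const hx ?_
    filter_upwards [self_mem_nhdsWithin, mem_nhdsWithin_of_mem_nhds hfx'] with y hy h1
    have := mem_vanishingIdeal_iff.1 hfg y hy
    rw [map_mul] at this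
    exact (mul_eq_zero.1 this).resolve_left h1

/-- the zero set of a prime ideal off a hypersurface downstairs -/
theorem ini_graph {𝔭 : Ideal (MvPolynomial σ ℂ)} (hp : 𝔭.IsPrime) :
    ∃ (B : Finset σ) (h : MvPolynomial B ℂ) (f : σ → Polynomial (MvPolynomial B ℂ))
      (Γ : (σ → ℂ) → (B → ℂ) → σ → ℂ), rename Subtype.val h ∉ 𝔭 ∧
      ∀ z ∈ zeroLocus ℂ 𝔭, eval (z ∘ Subtype.val) h ≠ 0 →
        IniBr (zeroLocus ℂ 𝔭) (fun z => z ∘ Subtype.val) z (Γ z) ∧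
        ∀ i, (f i).map (eval (z ∘ Subtype.val)) ≠ 0 ∧ ((f i).map (eval (z ∘ Subtype.val))).eval (z i) = 0 := by
  obtain ⟨B, hB, hA⟩ := exists_prime_basis hp
  obtain ⟨h1, g, hg, h2⟩ := gen_smooth (𝕃 := ℂ) hp B hB hA
  obtain ⟨h₀, hh₀, hmem⟩ := h1 g hg
  choose f hf0 hf using hA
  choose! Γ hΓ using h2
  refine ⟨B, h₀ * ∏ i, (f i).leadingCoeff, f, Γ, fun hm => ?_, fun z hz hne => ?_⟩
  · exact mul_ne_zero hh₀ (Finset.prod_ne_zero_iff.2 fun i _ => Polynomial.leadingCoeff_ne_zero.2 (hf0 i)) (hB _ hm)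
  rw [map_mul, map_prod] at hne
  have hgz : aeval z g ≠ 0 := fun h0 => left_ne_zero_of_mul hne (by
    obtain ⟨p, hp', a, ha, e⟩ := Submodule.mem_sup.1 hmem
    obtain ⟨b, rfl⟩ := Ideal.mem_span_singleton'.1 ha
    have := congrArg (aeval z) e
    rw [map_add, map_mul, hz p hp', h0, mul_zero, add_zero, aeval_rename] at this
    exact this.symm)
  obtain ⟨a1, a2, a3, a4⟩ := hΓ z hz hgz
  refine ⟨⟨a1, a2, a3.mono fun x hx => ⟨funext hx.1, hx.2⟩, a4⟩, fun i => ⟨fun h0 => ?_, ?_⟩⟩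
  · refine Finset.prod_ne_zero_iff.1 (right_ne_zero_of_mul hne) i (Finset.mem_univ i) ?_
    have := congrArg (fun p => Polynomial.coeff p (f i).natDegree) h0
    rw [Polynomial.coeff_map, Polynomial.coeff_zero] at this
    exact this
  · have := hz _ (hf i)
    rw [← AlgHom.coe_toRingHom, Polynomial.hom_eval₂] at this
    have e1 : ((aeval z : MvPolynomial σ ℂ →ₐ[ℂ] ℂ) : MvPolynomial σ ℂ →+* ℂ).comp
        (rename Subtype.val : MvPolynomial B ℂ →ₐ[ℂ] MvPolynomial σ ℂ).toRingHom = eval (z ∘ Subtype.val) :=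
      RingHom.ext fun p => aeval_rename Subtype.val z p
    have e2 : ((aeval z : MvPolynomial σ ℂ →ₐ[ℂ] ℂ) : MvPolynomial σ ℂ →+* ℂ) (X i) = z i := aeval_X z i
    rwa [e1, e2, ← Polynomial.eval_map] at this

theorem ini_gra {j : τ → σ} {V : Set (σ → ℂ)} {D : Set (τ → ℂ)} (hD : IsOpen D)
    {Γ : (σ → ℂ) → (τ → ℂ) → σ → ℂ} (h : ∀ z ∈ V, z ∘ j ∈ D → IniBr V (fun z => z ∘ j) z (Γ z))
    {s : Set (MvPolynomial σ ℂ)} (hV : ∀ z, z ∈ V ↔ ∀ f ∈ s, eval z f = 0)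
    (hs : ∀ f ∈ s, ∀ m, (coeff m f).re ∈ 𝕜 ∧ (coeff m f).im ∈ 𝕜)
    (halg : ∀ z ∈ V, z ∘ j ∈ D → td 𝕜 (rc z) ≤ td 𝕜 (rc (z ∘ j))) :
    ∃ Γ', GrA 𝕜 (rc '' {z | z ∈ V ∧ z ∘ j ∈ D}) (Sum.map j j) Γ' := by
  obtain ⟨L, hL⟩ := exists_rcL σ
  obtain ⟨L', hL'⟩ := exists_rcL τ
  have e1 : ∀ z, L.symm (rc z) = z := fun z => by rw [← hL, L.symm_apply_apply]
  have e2 : ∀ z : σ → ℂ, L'.symm (rc z ∘ Sum.map j j) = z ∘ j := fun z => by rw [rc_comp, ← hL', L'.symm_apply_apply]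
  have t2 : ∀ z : σ → ℂ, Tendsto L'.symm (𝓝 (rc z ∘ Sum.map j j)) (𝓝 (z ∘ j)) := fun z => by
    have := L'.symm.continuous.tendsto (rc z ∘ Sum.map j j)
    rwa [e2] at this
  refine ⟨fun x y => L (Γ (L.symm x) (L'.symm y)), ?_, ?_, ?_, ?_, ?_⟩
  · rintro _ ⟨z, hz, rfl⟩
    rw [e1]
    exact (L.analyticAt _).comp (((h z hz.1 hz.2).an.restrictScalars (𝕜 := ℝ)).comp_of_eq (L'.symm.analyticAt _) (e2 z))
  · rintro _ ⟨z, hz, rfl⟩
    rw [e1, e2, (h z hz.1 hz.2).self, hL]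
  · rintro _ ⟨z, hz, rfl⟩
    filter_upwards [(t2 z).eventually ((h z hz.1 hz.2).mem.and (hD.mem_nhds hz.2))] with x hx
    rw [e1, hL, rc_comp, hx.1.1, ← hL', L'.apply_symm_apply]
    exact ⟨rfl, _, ⟨hx.1.2, by rw [hx.1.1]; exact hx.2⟩, rfl⟩
  · rintro _ ⟨z, hz, rfl⟩
    have t1 : Tendsto L.symm (𝓝 (rc z)) (𝓝 z) := by
      have := L.symm.continuous.tendsto (rc z)
      rwa [e1] at this
    filter_upwards [t1.eventually (h z hz.1 hz.2).uniq] with q hq hqZ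
    obtain ⟨w, rfl⟩ : ∃ w, rc w = q := ⟨L.symm q, by rw [← hL, L.apply_symm_apply]⟩
    rw [e1] at hq
    rw [e1, e2, hq ((hV w).2 fun f hf => ?_), hL]
    obtain ⟨f₁, f₂, h12⟩ := exists_re_im f (hs f hf)
    refine Complex.ext ((h12 w).1 ▸ hqZ f₁ ?_) ((h12 w).2 ▸ hqZ f₂ ?_)
    · rintro _ ⟨y, hy, rfl⟩
      rw [(h12 y).1, (hV y).1 hy.1 f hf, Complex.zero_re]
    · rintro _ ⟨y, hy, rfl⟩
      rw [(h12 y).2, (hV y).1 hy.1 f hf, Complex.zero_im]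
  · rintro _ ⟨z, hz, rfl⟩
    rw [rc_comp]
    exact halg z hz.1 hz.2

/-- limit points of a semialgebraic set -/
theorem ini_sa {k m : ℕ} {P Q : Fin k → Fin m → MvPolynomial (σ ⊕ σ) ℝ} {U S : Set (σ → ℂ)}
    (hU : U = ⋃ i, {x | (∀ j, pev (P i j) x = 0) ∧ ∀ j, 0 < pev (Q i j) x}) {z : σ → ℂ} (hz : z ∈ closure (U ∩ S))
    (h : ∀ i j, (∃ᶠ y in 𝓝 z, y ∈ U ∩ S ∧ pev (Q i j) y ≠ 0) → pev (Q i j) z ≠ 0) : z ∈ U := by
  have hz' := hz
  rw [hU, iUnion_inter, closure_iUnion_of_finite] at hz'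
  obtain ⟨i, hi⟩ := mem_iUnion.1 hz'
  have hc : ∀ R : MvPolynomial (σ ⊕ σ) ℝ, Continuous (pev R) := fun R =>
    continuousOn_univ.1 (analytic_pev R).continuousOn
  rw [hU]
  refine mem_iUnion.2 ⟨i, fun j => ?_, fun j => lt_of_le_of_ne ?_ (h i j ?_).symm⟩
  · exact closure_minimal (fun y hy => hy.1.1 j) (isClosed_eq (hc _) continuous_const) hi
  · exact closure_minimal (fun y hy => (hy.1.2 j).le) (isClosed_le continuous_const (hc _)) hi
  · exact (mem_closure_iff_frequently.1 hi).mono fun y hy =>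
      ⟨⟨hU ▸ mem_iUnion.2 ⟨i, hy.1⟩, hy.2⟩, (hy.1.2 j).ne'⟩

end Crest.Agent.R264
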