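import Crest.Agent.R264.Base.Top

/-! Row 264, block Init: the analytic part.  `U = O ∩ V` is bounded, `V` is a finite covering off `C`; if `U` has no
boundary points over `{R ≠ 0}` and `U ∩ π ⁻¹ {R = 0}` has none off `C`, then `PP` and `LT` hold. -/

set_option autoImplicit false
set_option linter.unusedSectionVars false
open Set Filter Topology Metric Complex

namespace Crest.Agent.R264

variable {E F : Type}
  [NormedAddCommGroup E] [NormedSpace ℂ E] [NormedSpace ℝ E] [IsScalarTower ℝ ℂ E] [FiniteDimensional ℂ E]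
  [NormedAddCommGroup F] [NormedSpace ℂ F] [NormedSpace ℝ F] [IsScalarTower ℝ ℂ F] [FiniteDimensional ℂ F]

/-- `Γ` is the branch of `V` through `z` -/
structure IniBr (V : Set E) (π : E → F) (z : E) (Γ : F → E) : Prop where
  an : AnalyticAt ℂ Γ (π z)
  self : Γ (π z) = z
  mem : ∀ᶠ x in 𝓝 (π z), π (Γ x) = x ∧ Γ x ∈ V
  uniq : ∀ᶠ z' in 𝓝 z, z' ∈ V → Γ (π z') = z'

theorem IniBr.tendsto {V : Set E} {π : E → F} {z : E} {Γ : F → E} (h : IniBr V π z Γ) :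
    Tendsto Γ (𝓝 (π z)) (𝓝 z) := by
  have := h.an.continuousAt.tendsto
  rwa [h.self] at this

/-- finitely many branches cover `U` near the fibre -/
theorem ini_cover {V U : Set E} (hV : IsClosed V) (hUV : U ⊆ V) (hb : Bornology.IsBounded U) {π : E → F}
    (hπ : Continuous π) {q : F} {Γ : E → F → E} (h : ∀ z ∈ V, π z = q → IniBr V π z (Γ z)) :
    ∃ Z : Set E, Z.Finite ∧ (∀ z ∈ Z, z ∈ closure U ∧ π z = q) ∧
      ∀ᶠ x in 𝓝 q, ∀ y ∈ U, π y = x → ∃ z ∈ Z, Γ z x = y := by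
  have hK : IsCompact (closure U) := hb.isCompact_closure
  have hKV : closure U ⊆ V := closure_minimal hUV hV
  have hT : IsCompact (closure U ∩ π ⁻¹' {q}) := hK.inter_right (isClosed_singleton.preimage hπ)
  obtain ⟨Z, hZ, hcov⟩ := hT.elim_nhds_subcover (fun z => interior {z' | z' ∈ V → Γ z (π z') = z'})
    fun z hz => interior_mem_nhds.2 (h z (hKV hz.1) hz.2).uniq
  have hO : IsOpen (⋃ z ∈ Z, interior {z' | z' ∈ V → Γ z (π z') = z'}) :=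
    isOpen_biUnion fun _ _ => isOpen_interior
  have hcl : IsClosed (π '' (closure U \ ⋃ z ∈ Z, interior {z' | z' ∈ V → Γ z (π z') = z'})) :=
    ((hK.diff hO).image hπ).isClosed
  refine ⟨Z, Z.finite_toSet, fun z hz => hZ z hz, ?_⟩
  have hq : q ∈ (π '' (closure U \ ⋃ z ∈ Z, interior {z' | z' ∈ V → Γ z (π z') = z'}))ᶜ := by
    rintro ⟨y, hy, rfl⟩
    exact hy.2 (hcov ⟨hy.1, rfl⟩)
  filter_upwards [hcl.isOpen_compl.mem_nhds hq] with x hx y hy hyx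
  by_contra hne
  refine hx ⟨y, ⟨subset_closure hy, fun hm => hne ?_⟩, hyx⟩
  obtain ⟨z, hz, hm⟩ := mem_iUnion₂.1 hm
  exact ⟨z, hz, hyx ▸ interior_subset hm (hUV hy)⟩

/-- a branch over a connected set on which `R ≠ 0` lies in `U` or misses it -/
theorem ini_side {V U O : Set E} (hO : IsOpen O) (hU : U = O ∩ V) {π : E → F} {R : F → ℝ}
    (hA : ∀ z ∈ V, R (π z) ≠ 0 → z ∈ closure U → z ∈ U) {T : Set F} (hT : IsPreconnected T) {σ : F → E}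
    (hσ : ∀ x ∈ T, ContinuousAt σ x ∧ π (σ x) = x ∧ σ x ∈ V ∧ R x ≠ 0) {x₀ : F} (hx₀ : x₀ ∈ T) (h0 : σ x₀ ∈ U) :
    ∀ x ∈ T, σ x ∈ U := by
  refine clopen_ind (A := {x | σ x ∈ U}) hT ⟨x₀, hx₀, h0⟩ (fun x hx hxU => ?_) fun x hx hf => ?_
  · have hxO : σ x ∈ O := (hU ▸ hxU : σ x ∈ O ∩ V).1
    filter_upwards [self_mem_nhdsWithin, mem_nhdsWithin_of_mem_nhds ((hσ x hx).1.eventually (hO.mem_nhds hxO))]
      with y hy h1
    exact hU ▸ ⟨h1, (hσ y hy).2.2.1⟩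
  · refine hA _ (hσ x hx).2.2.1 (by rw [(hσ x hx).2.1]; exact (hσ x hx).2.2.2) ?_
    exact mem_closure_of_frequently_of_tendsto hf ((hσ x hx).1.tendsto.mono_left nhdsWithin_le_nhds)

theorem ini_pp {V U O : Set E} (hV : IsClosed V) (hO : IsOpen O) (hU : U = O ∩ V) (hb : Bornology.IsBounded U)
    {π : E → F} (hπ : Continuous π) {R : F → ℝ} {Γ : E → F → E} (h : ∀ z ∈ V, R (π z) ≠ 0 → IniBr V π z (Γ z))
    (hA : ∀ z ∈ V, R (π z) ≠ 0 → z ∈ closure U → z ∈ U) : PP U π R := by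
  intro q hq
  have hUV : U ⊆ V := hU ▸ inter_subset_right
  obtain ⟨Z, hZ, hZq, hcov⟩ := ini_cover hV hUV hb hπ (q := q) (Γ := Γ) fun z hz e => h z hz (e ▸ hq)
  have h1 : ∀ᶠ x in 𝓝 q, ∀ z ∈ Z, AnalyticAt ℂ (Γ z) x ∧ Γ z x ∈ U ∧ π (Γ z x) = x := by
    refine (eventually_all_finite hZ).2 fun z hz => ?_
    obtain ⟨hzU, rfl⟩ := hZq z hz
    have hzV : z ∈ V := closure_minimal hUV hV hzU
    have hb := h z hzV hq
    have hzO : z ∈ O := (hU ▸ hA z hzV hq hzU : z ∈ O ∩ V).1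
    filter_upwards [hb.an.eventually_analyticAt, hb.mem, hb.tendsto.eventually (hO.mem_nhds hzO)] with x h1 h2 h3
    exact ⟨h1, hU ▸ ⟨h3, h2.2⟩, h2.1⟩
  obtain ⟨W, hW, hWo, hqW⟩ := _root_.mem_nhds_iff.1 (h1.and hcov)
  refine ⟨W, hWo, hqW, Γ '' Z, hZ.image _, ?_, fun x hx hxW => ?_⟩
  · rintro _ ⟨z, hz, rfl⟩
    exact ⟨fun x hx => ((hW hx).1 z hz).1, fun x hx => ((hW hx).1 z hz).2⟩
  · obtain ⟨z, hz, e⟩ := (hW hxW).2 x hx rfl
    exact ⟨Γ z, mem_image_of_mem _ hz, e⟩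

theorem ini_lt {V U O : Set E} (hV : IsClosed V) (hO : IsOpen O) (hU : U = O ∩ V) (hb : Bornology.IsBounded U)
    {π : E → F} (hπ : Continuous π) {R : F → ℝ} {C : Set F} {Γ : E → F → E}
    (h : ∀ z ∈ V, π z ∉ C → IniBr V π z (Γ z))
    (hA : ∀ z ∈ V, R (π z) ≠ 0 → z ∈ closure U → z ∈ U)
    (hB : ∀ z ∈ V, π z ∉ C → R (π z) = 0 → z ∈ closure (U ∩ {y | R (π y) = 0}) → z ∈ U)
    (hs : ∀ q, q ∉ C → R q = 0 → ∃ r : F → ℝ, AnalyticAt ℝ r q ∧ fderiv ℝ r q ≠ 0 ∧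
      ∀ᶠ q' in 𝓝 q, (R q' = 0 ↔ r q' = 0)) : LT U π R C := by
  intro q hqC hq
  have : FiniteDimensional ℝ F := finR F
  have hUV : U ⊆ V := hU ▸ inter_subset_right
  obtain ⟨r, hr, hd, hRr⟩ := hs q hqC hq
  obtain ⟨Z, hZ, hZq, hcov⟩ := ini_cover hV hUV hb hπ (q := q) (Γ := Γ) fun z hz e => h z hz (e ▸ hqC)
  have h1 : ∀ᶠ x in 𝓝 q, ∀ z ∈ Z, AnalyticAt ℂ (Γ z) x ∧ π (Γ z x) = x ∧ Γ z x ∈ V ∧ (z ∈ U → Γ z x ∈ U) ∧
      (z ∉ U → R x = 0 → Γ z x ∉ U) := by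
    refine (eventually_all_finite hZ).2 fun z hz => ?_
    obtain ⟨hzU, rfl⟩ := hZq z hz
    have hzV : z ∈ V := closure_minimal hUV hV hzU
    have hb := h z hzV hqC
    by_cases hz' : z ∈ U
    · have hzO : z ∈ O := (hU ▸ hz' : z ∈ O ∩ V).1
      filter_upwards [hb.an.eventually_analyticAt, hb.mem, hb.tendsto.eventually (hO.mem_nhds hzO)] with x h1 h2 h3
      exact ⟨h1, h2.1, h2.2, fun _ => hU ▸ ⟨h3, h2.2⟩, fun h => absurd hz' h⟩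
    · have hn : z ∈ (closure (U ∩ {y | R (π y) = 0}))ᶜ := fun hc => hz' (hB z hzV hqC hq hc)
      filter_upwards [hb.an.eventually_analyticAt, hb.mem,
        hb.tendsto.eventually (isClosed_closure.isOpen_compl.mem_nhds hn)] with x h1 h2 h3
      refine ⟨h1, h2.1, h2.2, fun h => absurd h hz', fun _ hx hxU => h3 (subset_closure ⟨hxU, ?_⟩)⟩
      show R (π (Γ z x)) = 0
      rw [h2.1, hx]
  obtain ⟨W, hWo, hqW, hW, hrW, -, -, hp, hm, -, -⟩ :=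
    half_box hr (hRr.self_of_nhds.1 hq) hd (h1.and (hcov.and hRr))
  -- one side
  have side : ∀ s : F → ℝ, (∀ x ∈ W, R x = 0 ↔ s x = 0) → IsPreconnected (W ∩ {x | 0 < s x}) →
      ∃ 𝒮 : Set (F → E), 𝒮.Finite ∧ (∀ σ ∈ 𝒮, Sec U π (W ∩ {x | 0 < s x}) σ ∧ Walled U π W s ∅ σ) ∧
        ∀ z ∈ Z, z ∉ U → ∀ x ∈ W, 0 < s x → Γ z x ∈ U → Γ z ∈ 𝒮 := by
    intro s hsR hc
    refine ⟨Γ '' {z | z ∈ Z ∧ z ∉ U ∧ ∀ x ∈ W ∩ {x | 0 < s x}, Γ z x ∈ U}, (hZ.subset fun z hz => hz.1).image _, ?_,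
      fun z hz hzU x hx hsx hxU => mem_image_of_mem _ ⟨hz, hzU, ?_⟩⟩
    · rintro _ ⟨z, ⟨hz, hzU, hall⟩, rfl⟩
      refine ⟨⟨fun x hx => ((hW hx.1).1 z hz).1, fun x hx => ⟨hall x hx, ((hW hx.1).1 z hz).2.1⟩⟩, ?_⟩
      intro x hx hxW hsx _ hcl
      have hz' := (hW hxW).1 z hz
      refine hz'.2.2.2.2 hzU ((hsR _ hxW).2 hsx) ?_
      have hc : ContinuousAt (fun y => Γ z (π y)) x := hz'.1.continuousAt.comp hπ.continuousAt
      have e : Γ z (π x) = x := by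
        refine tendsto_nhds_unique_of_frequently_eq hc.tendsto tendsto_id ?_
        refine (mem_closure_iff_frequently.1 hcl).mono ?_
        rintro _ ⟨y, hy, rfl⟩
        rw [((hW hy.1).1 z hz).2.1, id]
      rw [e]
      exact hx.1
    · refine ini_side hO hU hA hc (fun y hy => ?_) ⟨hx, hsx⟩ hxU
      have hz' := (hW hy.1).1 z hz
      exact ⟨hz'.1.continuousAt, hz'.2.1, hz'.2.2.1, fun h0 => (ne_of_gt hy.2) ((hsR y hy.1).1 h0)⟩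
  obtain ⟨𝒮p, hpf, hpS, hpc⟩ := side r (fun x hx => (hW hx).2.2) (preconn_of_contr hp).isPreconnected
  obtain ⟨𝒮m, hmf, hmS, hmc⟩ := side (fun x => -r x) (fun x hx => by rw [neg_eq_zero]; exact (hW hx).2.2)
    (preconn_of_contr hm).isPreconnected
  refine ⟨W, r, hWo, hqW, hrW, hd, fun x hx => (hW hx).2.2, Γ '' {z | z ∈ Z ∧ z ∈ U}, 𝒮p, 𝒮m,
    (hZ.subset fun z hz => hz.1).image _, hpf, hmf, ?_, hpS, hmS, fun x hx hxW => ?_⟩
  · rintro _ ⟨z, ⟨hz, hzU⟩, rfl⟩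
    exact ⟨fun x hx => ((hW hx).1 z hz).1, fun x hx => ⟨((hW hx).1 z hz).2.2.2.1 hzU, ((hW hx).1 z hz).2.1⟩⟩
  · obtain ⟨z, hz, e⟩ := (hW hxW).2.1 x hx.1 rfl
    by_cases hzU : z ∈ U
    · exact Or.inl ⟨Γ z, mem_image_of_mem _ ⟨hz, hzU⟩, e⟩
    have hxU : Γ z (π x) ∈ U := e.symm ▸ hx.1
    rcases lt_trichotomy 0 (r (π x)) with h0 | h0 | h0
    · exact Or.inr (Or.inl ⟨h0, Γ z, hpc z hz hzU _ hxW h0 hxU, e⟩)
    · exact absurd hxU (((hW hxW).1 z hz).2.2.2.2 hzU ((hW hxW).2.2.2 h0.symm))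
    · exact Or.inr (Or.inr ⟨neg_pos.2 h0, Γ z, hmc z hz hzU _ hxW (neg_pos.2 h0) hxU, e⟩)

/-- the dimension, and a point over `{R ≠ 0}` -/
theorem ini_dim {n : ℕ} {V U O : Set E} (hO : IsOpen O) (hU : U = O ∩ V) (hm : Mfd n U) {π : E → F}
    (hπ : AnalyticOnNhd ℂ π univ) {D : Set F} (hD : IsOpen D) {Γ : E → F → E}
    (h : ∀ z ∈ V, π z ∈ D → IniBr V π z (Γ z)) (hne : ∃ z ∈ U, π z ∈ D) : Module.finrank ℂ F = n := by
  have hπc : Continuous π := continuousOn_univ.1 hπ.continuousOn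
  have hUV : U ⊆ V := hU ▸ inter_subset_right
  refine Mfd.dim_unique (X := U ∩ π ⁻¹' D) (Mfd.of_germ (G := F) rfl fun x hx => ?_) (hm.inter (hD.preimage hπc)) hne
  have hb := h x (hUV hx.1) hx.2
  have hxO : x ∈ O := (hU ▸ hx.1 : x ∈ O ∩ V).1
  refine ⟨Γ x, π, hπ x trivial, hb.an, ?_, ?_⟩
  · filter_upwards [hb.mem, hb.tendsto.eventually (hO.mem_nhds hxO), hD.mem_nhds hx.2] with v h1 h2 h3
    refine ⟨⟨hU ▸ ⟨h2, h1.2⟩, ?_⟩, h1.1⟩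
    show π (Γ x v) ∈ D
    rwa [h1.1]
  · filter_upwards [self_mem_nhdsWithin, mem_nhdsWithin_of_mem_nhds hb.uniq] with y hy h1
    exact h1 (hUV hy.1)

theorem ini_ex {V U O : Set E} (hO : IsOpen O) (hU : U = O ∩ V) {π : E → F} {z : E} {Γ : F → E} (hz : z ∈ U)
    (h : IniBr V π z Γ) {R : F → ℝ} (hR : Dense {q | R q ≠ 0}) : ∃ x ∈ U, R (π x) ≠ 0 := by
  have hzO : z ∈ O := (hU ▸ hz : z ∈ O ∩ V).1
  obtain ⟨x, h1, h2, h3⟩ := ((mem_closure_iff_frequently.1 (hR (π z))).and_eventually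
    (h.mem.and (h.tendsto.eventually (hO.mem_nhds hzO)))).exists
  exact ⟨Γ x, hU ▸ ⟨h3, h2.2⟩, by rwa [h2.1]⟩

end Crest.Agent.R264
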